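import Mathlib
import Vale.Agent.P079.Concrete

/-- Every real reflexive Banach space has the fixed point property for nonexpansive maps. -/
theorem Vale.Agent.Results.P079.Reflexive.result
    (X : Type*) [NormedAddCommGroup X] [NormedSpace ℝ X] [CompleteSpace X]
    (hX : Function.Surjective (NormedSpace.inclusionInDoubleDual ℝ X))
    (C : Set X) (hne : C.Nonempty) (hclosed : IsClosed C) (hbdd : Bornology.IsBounded C)
    (hconv : Convex ℝ C) (T : C → C)
    (hT : ∀ a b : C, ‖(T a : X) - (T b : X)‖ ≤ ‖(a : X) - (b : X)‖) :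
    ∃ x : C, T x = x := by
  classical
  let S : X → X := fun x => if h : x ∈ C then (T ⟨x, h⟩ : X) else x
  have hS : ∀ x (h : x ∈ C), S x = T ⟨x, h⟩ := fun x h => dif_pos h
  obtain ⟨x, hx, hfix⟩ := Vale.Agent.P079.fixed_point (T := S) (C := C) hX
    ⟨hne, hclosed, hconv, fun x hx => by rw [hS x hx]; exact (T ⟨x, hx⟩).2⟩
    (fun x hx y hy => by rw [hS x hx, hS y hy]; exact hT ⟨x, hx⟩ ⟨y, hy⟩) hbdd
  exact ⟨⟨x, hx⟩, Subtype.ext (by rw [← hS x hx]; exact hfix)⟩
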